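/-
helper54 -- S0076 log-spread Lean squad (coordinator helper68), leaf JE (second / hedge):
the tangent-line (Jensen) induction `jensen`, with the signature of helper68's Blueprint.
Insurance package, conditional, no S-file.
-/
import Crest.Agent.Helper68.S0076.Defs

set_option autoImplicit false

namespace Crest.Agent.Helper54.S0076

open Finset Crest.Agent.Helper68.S0076
open scoped Pointwise

variable {G : Type*} {X : Type*} [Group G] [Fintype G] [Fintype X] [DecidableEq X] [MulAction G X]

/-- On steps inside `B` the code weight is exactly `exp (- cost)`. -/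
theorem qw_eq_exp_neg_cost (B Z : Finset X) (ω : ℝ) (hω : 0 < ω)
    (hωE : ω * (B.card : ℝ) ≤ (Z.card : ℝ)) (hZ : 0 < Z.card) (U : Finset X) (g : G)
    (hU : U ⊆ B) (hg : g • Z ⊆ B) :
    qw ω B.card Z U g = Real.exp (- cost ω B.card Z U g) := by
  have hk : knew Z U g ≤ Z.card := by
    unfold knew
    calc ((g • Z) \ U).card ≤ (g • Z).card := Finset.card_le_card Finset.sdiff_subset
      _ = Z.card := Finset.card_smul_finset g Z
  unfold qw cost
  by_cases hU0 : U.card = 0
  · have hUe : U = ∅ := Finset.card_eq_zero.1 hU0
    have hknew : knew Z U g = Z.card := by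
      unfold knew
      rw [hUe, Finset.sdiff_empty, Finset.card_smul_finset]
    have hnu : nu ω B.card Z.card U.card = 1 := by
      unfold nu
      rw [if_pos hU0]
    rw [hnu, hknew]
    simp
  · by_cases hUB : U.card = B.card
    · have hUeq : U = B := Finset.eq_of_subset_of_card_le hU (le_of_eq hUB.symm)
      have hknew : knew Z U g = 0 := by
        unfold knew
        rw [hUeq]
        exact Finset.card_eq_zero.2 (Finset.sdiff_eq_empty_iff_subset.2 hg)
      have hnu : nu ω B.card Z.card U.card = 0 := by
        unfold nu
        rw [if_neg hU0, hUB]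
        simp
      rw [hnu, hknew]
      simp
    · have hlt : U.card < B.card := lt_of_le_of_ne (Finset.card_le_card hU) hUB
      have hνdef : nu ω B.card Z.card U.card
          = ω * ((B.card - U.card : ℕ) : ℝ) / (Z.card : ℝ) := by
        unfold nu
        rw [if_neg hU0]
      set ν : ℝ := nu ω B.card Z.card U.card with hν
      have hm : (0 : ℝ) < Z.card := by exact_mod_cast hZ
      have hsub : (0 : ℝ) < ((B.card - U.card : ℕ) : ℝ) := by
        exact_mod_cast Nat.sub_pos_of_lt hlt
      have hpos : 0 < ν := by
        rw [hνdef]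
        positivity
      have hlt1 : ν < 1 := by
        rw [hνdef, div_lt_one hm]
        have h1 : ((B.card - U.card : ℕ) : ℝ) < (B.card : ℝ) := by
          have : B.card - U.card < B.card := by omega
          exact_mod_cast this
        calc ω * ((B.card - U.card : ℕ) : ℝ) < ω * (B.card : ℝ) :=
              mul_lt_mul_of_pos_left h1 hω
          _ ≤ Z.card := hωE
      have h1ν : 0 < 1 - ν := by linarith
      rw [neg_add, Real.exp_add]
      congr 1
      · rw [one_div, Real.log_inv, mul_neg, neg_neg, mul_comm, Real.exp_mul, Real.exp_log hpos,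
          Real.rpow_natCast]
      · rw [one_div, Real.log_inv, mul_neg, neg_neg, ← Nat.cast_sub hk, mul_comm, Real.exp_mul,
          Real.exp_log h1ν, Real.rpow_natCast]

/-- Leaf JE: tangent-line (Jensen) induction. -/
theorem jensen (B Z : Finset X) (ω : ℝ) (hω : 0 < ω) (hωE : ω * (B.card : ℝ) ≤ (Z.card : ℝ))
    (hZ : 0 < Z.card) (T : ℕ) (U : Finset X) (hU : U ⊆ B) (lam : ℝ) :
    Real.exp (-lam) * ((1 + lam) * Cseq G Z T U - Lseq G ω B.card Z T U)
      ≤ Aseq Z (qw (G := G) ω B.card Z) T U := by
  induction T generalizing U lam with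
  | zero =>
    show Real.exp (-lam) * ((1 + lam) * (if U = ∅ then (1 : ℝ) else 0) - 0)
      ≤ (if U = ∅ then (1 : ℝ) else 0)
    by_cases h : U = ∅
    · rw [if_pos h, sub_zero, mul_one, Real.exp_neg, inv_mul_le_iff₀ (Real.exp_pos lam), mul_one]
      linarith [Real.add_one_le_exp lam]
    · rw [if_neg h]
      simp
  | succ T ih =>
    show Real.exp (-lam) * ((1 + lam) *
          (∑ V : Finset X, ∑ g : G, if V ∪ g • Z = U then Cseq G Z T V * 1 else 0)
        - ∑ V : Finset X, ∑ g : G, if V ∪ g • Z = U then
            (Lseq G ω B.card Z T V + Cseq G Z T V * cost ω B.card Z V g) else 0)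
      ≤ ∑ V : Finset X, ∑ g : G, if V ∪ g • Z = U then
          Aseq Z (qw (G := G) ω B.card Z) T V * qw ω B.card Z V g else 0
    have key : ∀ (V : Finset X) (g : G),
        Real.exp (-lam) * ((1 + lam) * (if V ∪ g • Z = U then Cseq G Z T V * 1 else 0)
          - (if V ∪ g • Z = U then
              (Lseq G ω B.card Z T V + Cseq G Z T V * cost ω B.card Z V g) else 0))
        ≤ (if V ∪ g • Z = U then
            Aseq Z (qw (G := G) ω B.card Z) T V * qw ω B.card Z V g else 0) := by
      intro V g
      by_cases h : V ∪ g • Z = U
      · rw [if_pos h, if_pos h, if_pos h]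
        have hV : V ⊆ B := fun x hx => hU (h ▸ Finset.mem_union_left _ hx)
        have hg : g • Z ⊆ B := fun x hx => hU (h ▸ Finset.mem_union_right _ hx)
        have hq := qw_eq_exp_neg_cost B Z ω hω hωE hZ V g hV hg
        have hih := ih V hV (lam - cost ω B.card Z V g)
        have hsplit : Real.exp (-lam)
            = Real.exp (- cost ω B.card Z V g) * Real.exp (-(lam - cost ω B.card Z V g)) := by
          rw [← Real.exp_add]
          congr 1
          ring
        calc Real.exp (-lam) * ((1 + lam) * (Cseq G Z T V * 1)
              - (Lseq G ω B.card Z T V + Cseq G Z T V * cost ω B.card Z V g))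
            = Real.exp (- cost ω B.card Z V g) *
                (Real.exp (-(lam - cost ω B.card Z V g)) *
                  ((1 + (lam - cost ω B.card Z V g)) * Cseq G Z T V - Lseq G ω B.card Z T V)) := by
              rw [hsplit]
              ring
          _ ≤ Real.exp (- cost ω B.card Z V g) * Aseq Z (qw (G := G) ω B.card Z) T V :=
              mul_le_mul_of_nonneg_left hih (Real.exp_pos _).le
          _ = Aseq Z (qw (G := G) ω B.card Z) T V * qw ω B.card Z V g := by
              rw [hq, mul_comm]
      · rw [if_neg h, if_neg h, if_neg h]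
        simp
    calc Real.exp (-lam) * ((1 + lam) *
            (∑ V : Finset X, ∑ g : G, if V ∪ g • Z = U then Cseq G Z T V * 1 else 0)
          - ∑ V : Finset X, ∑ g : G, if V ∪ g • Z = U then
              (Lseq G ω B.card Z T V + Cseq G Z T V * cost ω B.card Z V g) else 0)
        = ∑ V : Finset X, ∑ g : G,
            Real.exp (-lam) * ((1 + lam) * (if V ∪ g • Z = U then Cseq G Z T V * 1 else 0)
              - (if V ∪ g • Z = U then
                  (Lseq G ω B.card Z T V + Cseq G Z T V * cost ω B.card Z V g) else 0)) := by
          rw [Finset.mul_sum, ← Finset.sum_sub_distrib, Finset.mul_sum]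
          refine Finset.sum_congr rfl (fun V _ => ?_)
          rw [Finset.mul_sum, ← Finset.sum_sub_distrib, Finset.mul_sum]
      _ ≤ _ := Finset.sum_le_sum (fun V _ => Finset.sum_le_sum (fun g _ => key V g))

end Crest.Agent.Helper54.S0076
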