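/-
helper54 -- S0076 log-spread Lean squad (coordinator helper68), leaves P and N (hedge copies):
`sum_mul_push`, `nu_mem`, `qw_nonneg`, `Aseq_nonneg`, with the signatures of helper68's Blueprint.
Insurance package, conditional, no S-file.
-/
import Crest.Agent.Helper68.S0076.Defs

set_option autoImplicit false

namespace Crest.Agent.Helper54.S0076

open Finset Crest.Agent.Helper68.S0076
open scoped Pointwise

variable {G : Type*} {X : Type*} [Group G] [Fintype G] [Fintype X] [DecidableEq X] [MulAction G X]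

/-- Leaf P: the transfer operator under a sum. -/
theorem sum_mul_push (Z : Finset X) (wt : Finset X → G → ℝ) (f h : Finset X → ℝ) :
    ∑ U' : Finset X, h U' * push Z wt f U'
      = ∑ U : Finset X, ∑ g : G, h (U ∪ g • Z) * (f U * wt U g) := by
  unfold push
  simp_rw [Finset.mul_sum, mul_ite, mul_zero]
  rw [Finset.sum_comm]
  refine Finset.sum_congr rfl (fun U _ => ?_)
  rw [Finset.sum_comm]
  refine Finset.sum_congr rfl (fun g _ => ?_)
  rw [Finset.sum_ite_eq]
  simp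

/-- Leaf N. -/
theorem nu_mem (ω : ℝ) (E m u : ℕ) (hω : 0 ≤ ω) (hωE : ω * (E : ℝ) ≤ (m : ℝ)) :
    0 ≤ nu ω E m u ∧ nu ω E m u ≤ 1 := by
  unfold nu
  by_cases hu : u = 0
  · rw [if_pos hu]
    exact ⟨zero_le_one, le_rfl⟩
  · rw [if_neg hu]
    have hm : (0 : ℝ) ≤ (m : ℝ) := Nat.cast_nonneg m
    have hsub : ((E - u : ℕ) : ℝ) ≤ (E : ℝ) := by exact_mod_cast Nat.sub_le E u
    have hsub0 : (0 : ℝ) ≤ ((E - u : ℕ) : ℝ) := Nat.cast_nonneg _
    refine ⟨div_nonneg (mul_nonneg hω hsub0) hm, ?_⟩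
    apply div_le_one_of_le₀ _ hm
    calc ω * ((E - u : ℕ) : ℝ) ≤ ω * (E : ℝ) := mul_le_mul_of_nonneg_left hsub hω
      _ ≤ m := hωE

theorem qw_nonneg (ω : ℝ) (E : ℕ) (Z U : Finset X) (g : G) (hω : 0 ≤ ω)
    (hωE : ω * (E : ℝ) ≤ (Z.card : ℝ)) : 0 ≤ qw ω E Z U g := by
  unfold qw
  obtain ⟨h0, h1⟩ := nu_mem ω E Z.card U.card hω hωE
  exact mul_nonneg (pow_nonneg h0 _) (pow_nonneg (by linarith) _)

theorem Aseq_nonneg (Z : Finset X) (wt : Finset X → G → ℝ) (hwt : ∀ U g, 0 ≤ wt U g)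
    (T : ℕ) (U : Finset X) : 0 ≤ Aseq Z wt T U := by
  induction T generalizing U with
  | zero =>
    show (0 : ℝ) ≤ (if U = ∅ then (1 : ℝ) else 0)
    split_ifs <;> norm_num
  | succ T ih =>
    show (0 : ℝ) ≤ ∑ V : Finset X, ∑ g : G,
      if V ∪ g • Z = U then Aseq Z wt T V * wt V g else 0
    refine Finset.sum_nonneg (fun V _ => Finset.sum_nonneg (fun g _ => ?_))
    split_ifs
    · exact mul_nonneg (ih V) (hwt V g)
    · exact le_rfl

end Crest.Agent.Helper54.S0076
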