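/-
helper54 -- S0076 log-spread Lean squad (coordinator helper68), leaf PT (hedge copy):
`sum_hits` and `potential` (one-step supermartingale inequality with the potential `Phi`),
with the signatures of helper68's Blueprint.  Insurance package, conditional, no S-file.
Maths: notes/s0076_helper68_blueprint.md, step [PT].
-/
import Crest.Agent.Helper68.S0076.Defs
import Crest.Agent.Helper54.S0076.PN

set_option autoImplicit false

namespace Crest.Agent.Helper54.S0076

open Finset Crest.Agent.Helper68.S0076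
open scoped Pointwise

variable {G : Type*} {X : Type*} [Group G] [Fintype G] [Fintype X] [DecidableEq X] [MulAction G X]

theorem knew_le_card (Z U : Finset X) (g : G) : knew Z U g ≤ Z.card := by
  unfold knew
  calc ((g • Z) \ U).card ≤ (g • Z).card := Finset.card_le_card Finset.sdiff_subset
    _ = Z.card := Finset.card_smul_finset g Z

/-- Double counting: new points of the translates inside `B` versus hits of the points of `B \ U`. -/
theorem sum_knew_eq (Z B U : Finset X) :
    ∑ g ∈ Finset.univ.filter (fun g : G => g • Z ⊆ B), knew Z U g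
      = ∑ x ∈ B \ U, hits G Z B x := by
  have h1 : ∀ g ∈ Finset.univ.filter (fun g : G => g • Z ⊆ B),
      knew Z U g = ∑ x ∈ B \ U, if x ∈ g • Z then 1 else 0 := by
    intro g hg
    have hgB : g • Z ⊆ B := (Finset.mem_filter.1 hg).2
    unfold knew
    rw [← Finset.card_filter]
    congr 1
    ext x
    simp only [Finset.mem_sdiff, Finset.mem_filter]
    constructor
    · rintro ⟨hx, hxU⟩
      exact ⟨⟨hgB hx, hxU⟩, hx⟩
    · rintro ⟨⟨_, hxU⟩, hx⟩
      exact ⟨hx, hxU⟩
  have h2 : ∀ x, hits G Z B x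
      = ∑ g ∈ Finset.univ.filter (fun g : G => g • Z ⊆ B), if x ∈ g • Z then 1 else 0 := by
    intro x
    unfold hits
    rw [← Finset.card_filter, Finset.filter_filter]
  rw [Finset.sum_congr rfl h1, Finset.sum_comm]
  exact Finset.sum_congr rfl (fun x _ => (h2 x).symm)

/-- Leaf PT (first part). -/
theorem sum_hits (Z B : Finset X) :
    ∑ x ∈ B, hits G Z B x = Z.card * inj G Z B := by
  have h := sum_knew_eq (G := G) Z B ∅
  rw [Finset.sdiff_empty] at h
  rw [← h]
  have h' : ∀ g ∈ Finset.univ.filter (fun g : G => g • Z ⊆ B), knew Z ∅ g = Z.card := by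
    intro g _
    unfold knew
    rw [Finset.sdiff_empty, Finset.card_smul_finset]
  rw [Finset.sum_congr rfl h', Finset.sum_const, smul_eq_mul, mul_comm]
  rfl

theorem log_one_div_nonneg {y : ℝ} (h0 : 0 ≤ y) (h1 : y ≤ 1) : 0 ≤ Real.log (1 / y) := by
  rcases h0.eq_or_lt with h | h
  · rw [← h]
    simp
  · exact Real.log_nonneg (by rw [le_div_iff₀ h]; linarith)

theorem cost_nonneg (ω : ℝ) (E : ℕ) (Z U : Finset X) (g : G) (hω : 0 ≤ ω)
    (hωE : ω * (E : ℝ) ≤ (Z.card : ℝ)) : 0 ≤ cost ω E Z U g := by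
  unfold cost
  obtain ⟨h0, h1⟩ := nu_mem ω E Z.card U.card hω hωE
  have hk : (knew Z U g : ℝ) ≤ (Z.card : ℝ) := by exact_mod_cast knew_le_card Z U g
  have hk0 : (0 : ℝ) ≤ (knew Z U g : ℝ) := Nat.cast_nonneg _
  have hl1 := log_one_div_nonneg h0 h1
  have hl2 := log_one_div_nonneg (y := 1 - nu ω E Z.card U.card) (by linarith) (by linarith)
  have e1 := mul_nonneg hk0 hl1
  have e2 := mul_nonneg (sub_nonneg.2 hk) hl2
  linarith

theorem Cseq_nonneg_aux (Z : Finset X) (T : ℕ) (U : Finset X) : 0 ≤ Cseq G Z T U :=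
  Aseq_nonneg Z _ (fun _ _ => zero_le_one) T U

theorem Lseq_nonneg (ω : ℝ) (E : ℕ) (Z : Finset X) (hω : 0 ≤ ω)
    (hωE : ω * (E : ℝ) ≤ (Z.card : ℝ)) (T : ℕ) (U : Finset X) : 0 ≤ Lseq G ω E Z T U := by
  induction T generalizing U with
  | zero => exact le_rfl
  | succ T ih =>
    show (0 : ℝ) ≤ ∑ V : Finset X, ∑ g : G,
      if V ∪ g • Z = U then (Lseq G ω E Z T V + Cseq G Z T V * cost ω E Z V g) else 0
    refine Finset.sum_nonneg (fun V _ => Finset.sum_nonneg (fun g _ => ?_))
    split_ifs
    · exact add_nonneg (ih V)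
        (mul_nonneg (Cseq_nonneg_aux Z T V) (cost_nonneg ω E Z V g hω hωE))
    · exact le_rfl

theorem Phi_zero (ω : ℝ) (m : ℕ) : Phi ω m 0 = 0 := by
  unfold Phi
  simp

theorem log_arg_nonneg (ω : ℝ) (m : ℕ) (hω : 0 < ω) (hm : 0 < m) (E r : ℝ)
    (hωE : ω * E ≤ (m : ℝ)) (hr0 : 0 ≤ r) (hrE : r ≤ E) :
    0 ≤ Real.log (Real.exp 1 * (m : ℝ) / (ω * r)) := by
  rcases hr0.eq_or_lt with h | h
  · rw [← h]
    simp
  · have hm' : (0 : ℝ) < m := by exact_mod_cast hm
    apply Real.log_nonneg
    rw [le_div_iff₀ (by positivity)]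
    have h1 : ω * r ≤ m := (mul_le_mul_of_nonneg_left hrE hω.le).trans hωE
    have he : (1 : ℝ) ≤ Real.exp 1 := by linarith [Real.add_one_le_exp (1 : ℝ)]
    nlinarith

theorem Phi_nonneg (ω : ℝ) (m : ℕ) (hω : 0 < ω) (hm : 0 < m) (E r : ℝ)
    (hωE : ω * E ≤ (m : ℝ)) (hr0 : 0 ≤ r) (hrE : r ≤ E) : 0 ≤ Phi ω m r := by
  have hL := log_arg_nonneg ω m hω hm E r hωE hr0 hrE
  unfold Phi
  exact mul_nonneg hr0 (by linarith)

/-- `Φ(r) - Φ(r - k) ≥ k log (e m / (ω r))` for `0 ≤ k ≤ r`. -/
theorem Phi_step (ω : ℝ) (m : ℕ) (hω : 0 < ω) (hm : 0 < m) (r k : ℝ) (hk0 : 0 ≤ k)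
    (hkr : k ≤ r) :
    Phi ω m (r - k) + k * Real.log (Real.exp 1 * (m : ℝ) / (ω * r)) ≤ Phi ω m r := by
  have hm' : (0 : ℝ) < m := by exact_mod_cast hm
  rcases (hk0.trans hkr).eq_or_lt with hr0 | hr
  · have hk : k = 0 := le_antisymm (hr0 ▸ hkr) hk0
    subst hk
    rw [← hr0]
    simp
  · have hem : Real.exp 1 * (m : ℝ) ≠ 0 := by positivity
    have hLr : Real.log (Real.exp 1 * (m : ℝ) / (ω * r))
        = Real.log (Real.exp 1 * m) - Real.log ω - Real.log r := by
      rw [Real.log_div hem (by positivity), Real.log_mul hω.ne' hr.ne']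
      ring
    rcases hkr.eq_or_lt with hkr' | hkr'
    · rw [hkr', sub_self, Phi_zero]
      unfold Phi
      nlinarith
    · have hs : 0 < r - k := by linarith
      have hLs : Real.log (Real.exp 1 * (m : ℝ) / (ω * (r - k)))
          = Real.log (Real.exp 1 * m) - Real.log ω - Real.log (r - k) := by
        rw [Real.log_div hem (by positivity), Real.log_mul hω.ne' hs.ne']
        ring
      have hlog : (r - k) * (Real.log r - Real.log (r - k)) ≤ k := by
        have h := Real.log_le_sub_one_of_pos (div_pos hr hs)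
        rw [Real.log_div hr.ne' hs.ne'] at h
        have h2 := mul_le_mul_of_nonneg_left h hs.le
        have h3 : (r - k) * (r / (r - k) - 1) = k := by
          field_simp
          ring
        linarith
      unfold Phi
      rw [hLr, hLs]
      nlinarith [hlog]

/-- The one-step inequality. -/
theorem one_step (B Z : Finset X) (ω : ℝ) (hω : 0 < ω) (hZ : 0 < Z.card)
    (hωE : ω * (B.card : ℝ) ≤ (Z.card : ℝ))
    (hheavy : ∀ x ∈ B, ω * (inj G Z B : ℝ) ≤ (hits G Z B x : ℝ))
    (U : Finset X) (hU : U ⊆ B) :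
    ∑ g ∈ Finset.univ.filter (fun g : G => g • Z ⊆ B),
        (cost ω B.card Z U g
          + Phi ω Z.card ((B.card : ℝ) - (U.card : ℝ) - (knew Z U g : ℝ)))
      ≤ (inj G Z B : ℝ) * Phi ω Z.card ((B.card : ℝ) - (U.card : ℝ)) := by
  set F : Finset G := Finset.univ.filter (fun g : G => g • Z ⊆ B) with hF
  have hI : (inj G Z B : ℝ) = (F.card : ℝ) := rfl
  have hm : (0 : ℝ) < Z.card := by exact_mod_cast hZ
  have hUB : U.card ≤ B.card := Finset.card_le_card hU
  set r : ℝ := (B.card : ℝ) - (U.card : ℝ) with hr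
  have hr0 : 0 ≤ r := by
    rw [hr]
    exact sub_nonneg.2 (by exact_mod_cast hUB)
  have hrE : r ≤ B.card := by
    rw [hr]
    linarith [(Nat.cast_nonneg U.card : (0 : ℝ) ≤ U.card)]
  have hkr : ∀ g ∈ F, (knew Z U g : ℝ) ≤ r := by
    intro g hg
    have hgB : g • Z ⊆ B := (Finset.mem_filter.1 hg).2
    have h1 : knew Z U g ≤ (B \ U).card := by
      unfold knew
      exact Finset.card_le_card (Finset.sdiff_subset_sdiff hgB (le_refl U))
    rw [Finset.card_sdiff_of_subset hU] at h1
    rw [hr, ← Nat.cast_sub hUB]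
    exact_mod_cast h1
  have hLnn : 0 ≤ Real.log (Real.exp 1 * (Z.card : ℝ) / (ω * r)) :=
    log_arg_nonneg ω Z.card hω hZ B.card r hωE hr0 hrE
  by_cases hU0 : U.card = 0
  · have hcost : ∀ g ∈ F, cost ω B.card Z U g = 0 := by
      intro g _
      unfold cost nu
      rw [if_pos hU0]
      simp
    have hterm : ∀ g ∈ F,
        cost ω B.card Z U g + Phi ω Z.card (r - (knew Z U g : ℝ)) ≤ Phi ω Z.card r := by
      intro g hg
      rw [hcost g hg, zero_add]
      have h1 := Phi_step ω Z.card hω hZ r (knew Z U g) (Nat.cast_nonneg _) (hkr g hg)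
      have h2 := mul_nonneg (Nat.cast_nonneg (knew Z U g) : (0 : ℝ) ≤ _) hLnn
      linarith
    calc ∑ g ∈ F, (cost ω B.card Z U g + Phi ω Z.card (r - (knew Z U g : ℝ)))
        ≤ ∑ g ∈ F, Phi ω Z.card r := Finset.sum_le_sum hterm
      _ = (inj G Z B : ℝ) * Phi ω Z.card r := by
          rw [Finset.sum_const, nsmul_eq_mul, hI]
  · by_cases hUE : U.card = B.card
    · have hUeq : U = B := Finset.eq_of_subset_of_card_le hU (le_of_eq hUE.symm)
      have hr' : r = 0 := by
        rw [hr, hUE]
        ring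
      have hterm : ∀ g ∈ F,
          cost ω B.card Z U g + Phi ω Z.card (r - (knew Z U g : ℝ)) = 0 := by
        intro g hg
        have hgB : g • Z ⊆ B := (Finset.mem_filter.1 hg).2
        have hk : knew Z U g = 0 := by
          unfold knew
          rw [hUeq]
          exact Finset.card_eq_zero.2 (Finset.sdiff_eq_empty_iff_subset.2 hgB)
        have hnu : nu ω B.card Z.card U.card = 0 := by
          unfold nu
          rw [if_neg hU0, hUE]
          simp
        unfold cost
        rw [hnu, hk, hr']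
        simp [Phi_zero]
      rw [Finset.sum_congr rfl hterm, Finset.sum_const_zero, hr', Phi_zero, mul_zero]
    · have hlt : U.card < B.card := lt_of_le_of_ne hUB hUE
      have hrpos : 0 < r := by
        rw [hr]
        exact sub_pos.2 (by exact_mod_cast hlt)
      have hνdef : nu ω B.card Z.card U.card = ω * r / (Z.card : ℝ) := by
        rw [hr]
        unfold nu
        rw [if_neg hU0, Nat.cast_sub hUB]
      set ν : ℝ := nu ω B.card Z.card U.card with hν
      have hνpos : 0 < ν := by
        rw [hνdef]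
        positivity
      have hνlt : ν < 1 := by
        rw [hνdef, div_lt_one hm]
        have h1 : r < B.card := by
          rw [hr]
          have : (0 : ℝ) < U.card := by exact_mod_cast Nat.pos_of_ne_zero hU0
          linarith
        calc ω * r < ω * B.card := mul_lt_mul_of_pos_left h1 hω
          _ ≤ Z.card := hωE
      have h1ν : 0 < 1 - ν := by linarith
      set lam' : ℝ := Real.log (1 / (1 - ν)) with hlam'
      have hlam'le : lam' ≤ ν / (1 - ν) := by
        have h := Real.log_le_sub_one_of_pos (one_div_pos.2 h1ν)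
        have h2 : 1 / (1 - ν) - 1 = ν / (1 - ν) := by
          field_simp
          ring
        rw [hlam']
        linarith
      have hlogν : Real.log (1 / ν)
          = Real.log (Real.exp 1 * (Z.card : ℝ) / (ω * r)) - 1 := by
        have h1 : Real.exp 1 * (Z.card : ℝ) / (ω * r) = Real.exp 1 * (1 / ν) := by
          rw [hνdef]
          field_simp
        rw [h1, Real.log_mul (Real.exp_pos 1).ne' (one_div_pos.2 hνpos).ne', Real.log_exp]
        ring
      have hterm : ∀ g ∈ F,
          cost ω B.card Z U g + Phi ω Z.card (r - (knew Z U g : ℝ))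
            ≤ (Phi ω Z.card r + (Z.card : ℝ) * lam') - (1 + lam') * (knew Z U g : ℝ) := by
        intro g hg
        have hstep := Phi_step ω Z.card hω hZ r (knew Z U g) (Nat.cast_nonneg _) (hkr g hg)
        have hc : cost ω B.card Z U g = (knew Z U g : ℝ) * Real.log (1 / ν)
            + ((Z.card : ℝ) - (knew Z U g : ℝ)) * lam' := rfl
        rw [hc, hlogν]
        nlinarith [hstep]
      have hK1 : ω * r * (F.card : ℝ) ≤ ∑ g ∈ F, (knew Z U g : ℝ) := by
        have h := sum_knew_eq (G := G) Z B U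
        have h' : (∑ g ∈ F, (knew Z U g : ℝ)) = ∑ x ∈ B \ U, (hits G Z B x : ℝ) := by
          exact_mod_cast h
        rw [h']
        calc ω * r * (F.card : ℝ) = ∑ x ∈ B \ U, ω * (inj G Z B : ℝ) := by
              rw [Finset.sum_const, nsmul_eq_mul, Finset.card_sdiff_of_subset hU,
                Nat.cast_sub hUB, hI, hr]
              ring
          _ ≤ ∑ x ∈ B \ U, (hits G Z B x : ℝ) :=
              Finset.sum_le_sum (fun x hx => hheavy x (Finset.mem_sdiff.1 hx).1)
      have hK1le : ∑ g ∈ F, (knew Z U g : ℝ) ≤ (Z.card : ℝ) * (F.card : ℝ) := by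
        calc ∑ g ∈ F, (knew Z U g : ℝ) ≤ ∑ g ∈ F, (Z.card : ℝ) :=
              Finset.sum_le_sum (fun g _ => by exact_mod_cast knew_le_card Z U g)
          _ = (Z.card : ℝ) * (F.card : ℝ) := by
              rw [Finset.sum_const, nsmul_eq_mul]
              ring
      calc ∑ g ∈ F, (cost ω B.card Z U g + Phi ω Z.card (r - (knew Z U g : ℝ)))
          ≤ ∑ g ∈ F, ((Phi ω Z.card r + (Z.card : ℝ) * lam')
              - (1 + lam') * (knew Z U g : ℝ)) := Finset.sum_le_sum hterm
        _ = (F.card : ℝ) * (Phi ω Z.card r + (Z.card : ℝ) * lam')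
              - (1 + lam') * ∑ g ∈ F, (knew Z U g : ℝ) := by
            rw [Finset.sum_sub_distrib, Finset.sum_const, nsmul_eq_mul, ← Finset.mul_sum]
        _ ≤ (inj G Z B : ℝ) * Phi ω Z.card r := by
            rw [hI]
            have hνm : ν * (Z.card : ℝ) = ω * r := by
              rw [hνdef]
              field_simp
            have h3 : (Z.card : ℝ) * (F.card : ℝ) * ν = ω * r * (F.card : ℝ) := by
              rw [← hνm]
              ring
            have hA : ((Z.card : ℝ) * (F.card : ℝ) - ∑ g ∈ F, (knew Z U g : ℝ)) * lam'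
                ≤ ∑ g ∈ F, (knew Z U g : ℝ) := by
              have h1 : ((Z.card : ℝ) * (F.card : ℝ) - ∑ g ∈ F, (knew Z U g : ℝ)) * lam'
                  ≤ ((Z.card : ℝ) * (F.card : ℝ) - ∑ g ∈ F, (knew Z U g : ℝ))
                    * (ν / (1 - ν)) :=
                mul_le_mul_of_nonneg_left hlam'le (sub_nonneg.2 hK1le)
              have h2 : ((Z.card : ℝ) * (F.card : ℝ) - ∑ g ∈ F, (knew Z U g : ℝ))
                  * (ν / (1 - ν)) ≤ ∑ g ∈ F, (knew Z U g : ℝ) := by
                rw [← mul_div_assoc, div_le_iff₀ h1ν]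
                nlinarith [hK1, h3]
              linarith
            nlinarith [hA]

/-- indicator of the subsets of `B` -/
noncomputable def chiB (B U : Finset X) : ℝ := if U ⊆ B then 1 else 0

/-- the potential of a subset of `B` -/
noncomputable def phiB (ω : ℝ) (m : ℕ) (B U : Finset X) : ℝ :=
  if U ⊆ B then Phi ω m ((B.card : ℝ) - (U.card : ℝ)) else 0

variable (G) in
/-- `Ψ_T = ∑_{U ⊆ B} (L_T(U) + C_T(U) Φ(E - |U|))`. -/
noncomputable def PsiT (ω : ℝ) (B Z : Finset X) (T : ℕ) : ℝ :=
  ∑ U : Finset X, (chiB B U * Lseq G ω B.card Z T U + phiB ω Z.card B U * Cseq G Z T U)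

theorem sum_mul_Lseq_succ (ω : ℝ) (E : ℕ) (Z : Finset X) (T : ℕ) (h : Finset X → ℝ) :
    ∑ U' : Finset X, h U' * Lseq G ω E Z (T + 1) U'
      = ∑ U : Finset X, ∑ g : G,
          h (U ∪ g • Z) * (Lseq G ω E Z T U + Cseq G Z T U * cost ω E Z U g) := by
  show ∑ U' : Finset X, h U' * (∑ U : Finset X, ∑ g : G,
      if U ∪ g • Z = U' then (Lseq G ω E Z T U + Cseq G Z T U * cost ω E Z U g) else 0) = _
  simp_rw [Finset.mul_sum, mul_ite, mul_zero]
  rw [Finset.sum_comm]
  refine Finset.sum_congr rfl (fun U _ => ?_)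
  rw [Finset.sum_comm]
  refine Finset.sum_congr rfl (fun g _ => ?_)
  rw [Finset.sum_ite_eq]
  simp

theorem sum_mul_Cseq_succ (Z : Finset X) (T : ℕ) (h : Finset X → ℝ) :
    ∑ U' : Finset X, h U' * Cseq G Z (T + 1) U'
      = ∑ U : Finset X, ∑ g : G, h (U ∪ g • Z) * Cseq G Z T U := by
  have key := sum_mul_push Z (fun (_ : Finset X) (_ : G) => (1 : ℝ)) (Cseq G Z T) h
  simp only [mul_one] at key
  exact key

theorem PsiT_succ_le (B Z : Finset X) (ω : ℝ) (hω : 0 < ω) (hZ : 0 < Z.card)
    (hωE : ω * (B.card : ℝ) ≤ (Z.card : ℝ))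
    (hheavy : ∀ x ∈ B, ω * (inj G Z B : ℝ) ≤ (hits G Z B x : ℝ)) (T : ℕ) :
    PsiT G ω B Z (T + 1) ≤ (inj G Z B : ℝ) * PsiT G ω B Z T := by
  unfold PsiT
  rw [Finset.sum_add_distrib, sum_mul_Lseq_succ, sum_mul_Cseq_succ, ← Finset.sum_add_distrib,
    Finset.mul_sum]
  refine Finset.sum_le_sum (fun U _ => ?_)
  rw [← Finset.sum_add_distrib]
  have hI : (inj G Z B : ℝ) = ((Finset.univ.filter (fun g : G => g • Z ⊆ B)).card : ℝ) := rfl
  by_cases hU : U ⊆ B
  · have hsum : ∑ g : G, (chiB B (U ∪ g • Z)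
          * (Lseq G ω B.card Z T U + Cseq G Z T U * cost ω B.card Z U g)
          + phiB ω Z.card B (U ∪ g • Z) * Cseq G Z T U)
        = ∑ g ∈ Finset.univ.filter (fun g : G => g • Z ⊆ B),
            (Lseq G ω B.card Z T U + Cseq G Z T U * (cost ω B.card Z U g
              + Phi ω Z.card ((B.card : ℝ) - (U.card : ℝ) - (knew Z U g : ℝ)))) := by
      rw [Finset.sum_filter]
      refine Finset.sum_congr rfl (fun g _ => ?_)
      by_cases hg : g • Z ⊆ B
      · have hUg : U ∪ g • Z ⊆ B := Finset.union_subset hU hg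
        have hcard : ((U ∪ g • Z).card : ℝ) = (U.card : ℝ) + (knew Z U g : ℝ) := by
          unfold knew
          rw [← Finset.union_sdiff_self_eq_union,
            Finset.card_union_of_disjoint Finset.disjoint_sdiff]
          push_cast
          ring
        have harg : (B.card : ℝ) - ((U.card : ℝ) + (knew Z U g : ℝ))
            = (B.card : ℝ) - (U.card : ℝ) - (knew Z U g : ℝ) := by ring
        unfold chiB phiB
        rw [if_pos hUg, if_pos hUg, if_pos hg, hcard, harg]
        ring
      · have hUg : ¬ (U ∪ g • Z ⊆ B) := fun h => hg (Finset.union_subset_right h)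
        unfold chiB phiB
        rw [if_neg hUg, if_neg hUg, if_neg hg]
        ring
    rw [hsum]
    have h1 := one_step B Z ω hω hZ hωE hheavy U hU
    have hC := Cseq_nonneg_aux (G := G) Z T U
    have h2 := mul_le_mul_of_nonneg_left h1 hC
    unfold chiB phiB
    rw [if_pos hU, if_pos hU, Finset.sum_add_distrib, Finset.sum_const, nsmul_eq_mul,
      ← Finset.mul_sum, ← hI]
    nlinarith [h2]
  · have hzero : ∀ g : G, chiB B (U ∪ g • Z)
          * (Lseq G ω B.card Z T U + Cseq G Z T U * cost ω B.card Z U g)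
          + phiB ω Z.card B (U ∪ g • Z) * Cseq G Z T U = 0 := by
      intro g
      have hUg : ¬ (U ∪ g • Z ⊆ B) := fun h => hU (Finset.union_subset_left h)
      unfold chiB phiB
      rw [if_neg hUg, if_neg hUg]
      ring
    rw [Finset.sum_congr rfl (fun g _ => hzero g), Finset.sum_const_zero]
    unfold chiB phiB
    rw [if_neg hU, if_neg hU]
    simp

/-- Leaf PT (second part): the potential bound. -/
theorem potential (B Z : Finset X) (ω : ℝ) (hω : 0 < ω) (hZ : 0 < Z.card)
    (hωE : ω * (B.card : ℝ) ≤ (Z.card : ℝ)) (hinj : 0 < inj G Z B)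
    (hheavy : ∀ x ∈ B, ω * (inj G Z B : ℝ) ≤ (hits G Z B x : ℝ)) (T : ℕ) :
    Lseq G ω B.card Z T B ≤ (inj G Z B : ℝ) ^ T * Phi ω Z.card (B.card : ℝ) := by
  have hPsi : ∀ T : ℕ, PsiT G ω B Z T ≤ (inj G Z B : ℝ) ^ T * Phi ω Z.card (B.card : ℝ) := by
    intro T
    induction T with
    | zero =>
      unfold PsiT
      have h0 : ∀ U : Finset X, chiB B U * Lseq G ω B.card Z 0 U
          + phiB ω Z.card B U * Cseq G Z 0 U
          = if U = ∅ then Phi ω Z.card (B.card : ℝ) else 0 := by
        intro U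
        show chiB B U * 0 + phiB ω Z.card B U * (if U = ∅ then (1 : ℝ) else 0) = _
        by_cases h : U = ∅
        · subst h
          unfold phiB
          simp
        · simp [h]
      rw [Finset.sum_congr rfl (fun U _ => h0 U), Finset.sum_ite_eq']
      simp
    | succ T ih =>
      calc PsiT G ω B Z (T + 1) ≤ (inj G Z B : ℝ) * PsiT G ω B Z T :=
            PsiT_succ_le B Z ω hω hZ hωE hheavy T
        _ ≤ (inj G Z B : ℝ) * ((inj G Z B : ℝ) ^ T * Phi ω Z.card (B.card : ℝ)) :=
            mul_le_mul_of_nonneg_left ih (Nat.cast_nonneg _)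
        _ = (inj G Z B : ℝ) ^ (T + 1) * Phi ω Z.card (B.card : ℝ) := by ring
  have hle : Lseq G ω B.card Z T B ≤ PsiT G ω B Z T := by
    unfold PsiT
    have hnn : ∀ U ∈ (Finset.univ : Finset (Finset X)),
        0 ≤ chiB B U * Lseq G ω B.card Z T U + phiB ω Z.card B U * Cseq G Z T U := by
      intro U _
      have hL := Lseq_nonneg (G := G) ω B.card Z hω.le hωE T U
      have hC := Cseq_nonneg_aux (G := G) Z T U
      unfold chiB phiB
      by_cases hU : U ⊆ B
      · rw [if_pos hU, if_pos hU]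
        have hUB : (U.card : ℝ) ≤ (B.card : ℝ) := by exact_mod_cast Finset.card_le_card hU
        have hP := Phi_nonneg ω Z.card hω hZ (B.card : ℝ) ((B.card : ℝ) - (U.card : ℝ)) hωE
          (by linarith) (by linarith [(Nat.cast_nonneg U.card : (0 : ℝ) ≤ U.card)])
        have := mul_nonneg hP hC
        linarith
      · rw [if_neg hU, if_neg hU]
        simp
    have hsingle := Finset.single_le_sum hnn (Finset.mem_univ B)
    have hB : chiB B B * Lseq G ω B.card Z T B + phiB ω Z.card B B * Cseq G Z T B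
        = Lseq G ω B.card Z T B := by
      unfold chiB phiB
      rw [if_pos (Finset.Subset.refl B), if_pos (Finset.Subset.refl B), sub_self, Phi_zero]
      ring
    linarith
  exact hle.trans (hPsi T)

end Crest.Agent.Helper54.S0076
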